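import Vale.Agent.P159.T1.D.Stmts
import Vale.Agent.P159.T1.H407.Riemann

/-!
Families of bond functions at scale `n` with an almost everywhere limit: sums of products converge
to integrals, oscillations converge to `0`.
-/

open MeasureTheory Filter Topology Set

namespace Vale.Agent.P159.T1.D.H459

open Vale.Agent.P159.T1.D Vale.Agent.P159.T1.H407

/-- `F n` is a family of bond functions at scale `n`: size `1 / n`, support in a box of size `n`,
and `n * F n` converges almost everywhere, at every fixed lattice distance of the point. -/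
structure BLim (F : ℕ → Bnd → ℝ) (f : Bool → ℝ × ℝ → ℝ) : Prop where
  bdd : ∃ M : ℝ, ∀ᶠ n : ℕ in atTop, ∀ e, |F n e| ≤ M / n
  supp : ∃ R : ℝ, ∀ᶠ n : ℕ in atTop, ∀ e, F n e ≠ 0 →
    |(e.1.1 : ℝ)| ≤ R * n ∧ |(e.1.2 : ℝ)| ≤ R * n
  lim : ∀ (s : Bool) (u : ℤ × ℤ), ∀ᵐ z : ℝ × ℝ,
    Tendsto (fun n : ℕ => (n : ℝ) * F n (fl n z + u, s)) atTop (𝓝 (f s z))

variable {F G : ℕ → Bnd → ℝ} {f g : Bool → ℝ × ℝ → ℝ}

lemma BLim.zero : BLim (fun _ _ => 0) (fun _ _ => 0) where
  bdd := ⟨0, Eventually.of_forall fun n e => by simp⟩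
  supp := ⟨0, Eventually.of_forall fun n e h => absurd rfl h⟩
  lim := fun s u => Eventually.of_forall fun z => by simp

lemma BLim.add (hF : BLim F f) (hG : BLim G g) :
    BLim (fun n e => F n e + G n e) (fun s z => f s z + g s z) where
  bdd := by
    obtain ⟨M, hM⟩ := hF.bdd
    obtain ⟨N, hN⟩ := hG.bdd
    refine ⟨M + N, ?_⟩
    filter_upwards [hM, hN] with n h1 h2 e
    rw [add_div]
    exact (abs_add_le _ _).trans (add_le_add (h1 e) (h2 e))
  supp := by
    obtain ⟨M, hM⟩ := hF.supp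
    obtain ⟨N, hN⟩ := hG.supp
    refine ⟨max M N, ?_⟩
    filter_upwards [hM, hN] with n h1 h2 e he
    have hn : (0 : ℝ) ≤ n := Nat.cast_nonneg n
    by_cases h : F n e = 0
    · have h' : G n e ≠ 0 := fun h' => he (by rw [h, h', add_zero])
      exact ⟨(h2 e h').1.trans (mul_le_mul_of_nonneg_right (le_max_right _ _) hn),
        (h2 e h').2.trans (mul_le_mul_of_nonneg_right (le_max_right _ _) hn)⟩
    · exact ⟨(h1 e h).1.trans (mul_le_mul_of_nonneg_right (le_max_left _ _) hn),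
        (h1 e h).2.trans (mul_le_mul_of_nonneg_right (le_max_left _ _) hn)⟩
  lim := fun s u => by
    filter_upwards [hF.lim s u, hG.lim s u] with z h1 h2
    refine (h1.add h2).congr fun n => ?_
    ring

lemma BLim.smul (c : ℝ) (hF : BLim F f) :
    BLim (fun n e => c * F n e) (fun s z => c * f s z) where
  bdd := by
    obtain ⟨M, hM⟩ := hF.bdd
    refine ⟨|c| * M, ?_⟩
    filter_upwards [hM] with n h1 e
    rw [abs_mul, mul_div_assoc]
    exact mul_le_mul_of_nonneg_left (h1 e) (abs_nonneg c)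
  supp := by
    obtain ⟨M, hM⟩ := hF.supp
    refine ⟨M, ?_⟩
    filter_upwards [hM] with n h1 e he
    exact h1 e fun h => he (by rw [h, mul_zero])
  lim := fun s u => by
    filter_upwards [hF.lim s u] with z h1
    refine (h1.const_mul c).congr fun n => ?_
    ring

lemma BLim.congr {F' : ℕ → Bnd → ℝ} {f' : Bool → ℝ × ℝ → ℝ} (hF : BLim F f)
    (h : ∀ᶠ n : ℕ in atTop, ∀ e, F' n e = F n e) (h' : ∀ s, ∀ᵐ z, f' s z = f s z) :
    BLim F' f' where
  bdd := by
    obtain ⟨M, hM⟩ := hF.bdd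
    refine ⟨M, ?_⟩
    filter_upwards [hM, h] with n h1 h2 e
    rw [h2]
    exact h1 e
  supp := by
    obtain ⟨M, hM⟩ := hF.supp
    refine ⟨M, ?_⟩
    filter_upwards [hM, h] with n h1 h2 e he
    rw [h2] at he
    exact h1 e he
  lim := fun s u => by
    filter_upwards [hF.lim s u, h' s] with z h1 h2
    rw [h2]
    refine h1.congr' ?_
    filter_upwards [h] with n hn
    rw [hn]

lemma BLim.sub (hF : BLim F f) (hG : BLim G g) :
    BLim (fun n e => F n e - G n e) (fun s z => f s z - g s z) :=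
  (hF.add (hG.smul (-1))).congr (Eventually.of_forall fun n e => by ring)
    fun s => Eventually.of_forall fun z => by ring

lemma BLim.sum {κ : Type*} (T : Finset κ) {F : κ → ℕ → Bnd → ℝ} {f : κ → Bool → ℝ × ℝ → ℝ}
    (h : ∀ i ∈ T, BLim (F i) (f i)) :
    BLim (fun n e => ∑ i ∈ T, F i n e) (fun s z => ∑ i ∈ T, f i s z) := by
  classical
  induction T using Finset.induction_on with
  | empty => simpa using BLim.zero
  | insert a T ha ih =>
    refine ((h a (Finset.mem_insert_self a T)).add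
      (ih fun i hi => h i (Finset.mem_insert_of_mem hi))).congr
      (Eventually.of_forall fun n e => ?_) fun s => Eventually.of_forall fun z => ?_
    · rw [Finset.sum_insert ha]
    · rw [Finset.sum_insert ha]

/-- shifts by a fixed lattice vector do not change the limit -/
lemma BLim.shift (hF : BLim F f) (v : Z2) : BLim (fun n e => F n (sh v e)) f where
  bdd := by
    obtain ⟨M, hM⟩ := hF.bdd
    exact ⟨M, hM.mono fun n h1 e => h1 (sh v e)⟩
  supp := by
    obtain ⟨M, hM⟩ := hF.supp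
    refine ⟨M + (|(v.1 : ℝ)| + |(v.2 : ℝ)|), ?_⟩
    filter_upwards [hM, eventually_ge_atTop 1] with n h1 hn e he
    obtain ⟨h2, h3⟩ := h1 _ he
    have hn1 : (1 : ℝ) ≤ n := by exact_mod_cast hn
    simp only [sh, Prod.fst_add, Prod.snd_add, Int.cast_add] at h2 h3
    have h4 : |(v.1 : ℝ)| + |(v.2 : ℝ)| ≤ (|(v.1 : ℝ)| + |(v.2 : ℝ)|) * n :=
      le_mul_of_one_le_right (by positivity) hn1
    have h5 := abs_nonneg (v.1 : ℝ)
    have h6 := abs_nonneg (v.2 : ℝ)
    rw [add_mul]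
    constructor
    · have h7 := abs_add_le ((e.1.1 : ℝ) + v.1) (-(v.1 : ℝ))
      rw [abs_neg, add_neg_cancel_right] at h7
      linarith
    · have h7 := abs_add_le ((e.1.2 : ℝ) + v.2) (-(v.2 : ℝ))
      rw [abs_neg, add_neg_cancel_right] at h7
      linarith
  lim := fun s u => by
    filter_upwards [hF.lim s (u + v)] with z h1
    refine h1.congr fun n => ?_
    simp only [sh]
    rw [add_assoc]

/-- all bonds with first end point in a box -/
noncomputable def bx (m : ℕ) : Finset Bnd :=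
  (Finset.Icc (-(m : ℤ)) m ×ˢ Finset.Icc (-(m : ℤ)) m) ×ˢ Finset.univ

lemma mem_bx {m : ℕ} {e : Bnd} : e ∈ bx m ↔
    (-(m : ℤ) ≤ e.1.1 ∧ e.1.1 ≤ m) ∧ -(m : ℤ) ≤ e.1.2 ∧ e.1.2 ≤ m := by
  simp [bx, Finset.mem_product, Finset.mem_Icc]

lemma mem_bx' {m : ℕ} {e : Bnd} {R : ℝ} (h : |(e.1.1 : ℝ)| ≤ R ∧ |(e.1.2 : ℝ)| ≤ R)
    (hR : R ≤ m) : e ∈ bx m := by
  rw [mem_bx]
  obtain ⟨h1, h2⟩ := h
  rw [abs_le] at h1 h2
  refine ⟨⟨?_, ?_⟩, ?_, ?_⟩
  · have : (-(m : ℝ)) ≤ e.1.1 := by linarith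
    exact_mod_cast this
  · have : (e.1.1 : ℝ) ≤ m := by linarith
    exact_mod_cast this
  · have : (-(m : ℝ)) ≤ e.1.2 := by linarith
    exact_mod_cast this
  · have : (e.1.2 : ℝ) ≤ m := by linarith
    exact_mod_cast this

/-- **Sums of products over large boxes converge to integrals.** -/
theorem BLim.sum_box (hF : BLim F f) (hG : BLim G g) : ∃ R : ℕ, ∀ R' : ℕ, R ≤ R' →
    Tendsto (fun n : ℕ => ∑ e ∈ bx (R' * n), F n e * G n e) atTop
      (𝓝 ((∫ z, f false z * g false z) + ∫ z, f true z * g true z)) ∧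
    ∀ᶠ n : ℕ in atTop, ∀ e, F n e * G n e ≠ 0 → e ∈ bx (R' * n) := by
  obtain ⟨M, hM⟩ := hF.bdd
  obtain ⟨N, hN⟩ := hG.bdd
  obtain ⟨R, hR⟩ := hF.supp
  refine ⟨⌈R⌉₊, fun R' hR' => ?_⟩
  have hR'' : R ≤ R' := (Nat.le_ceil R).trans (by exact_mod_cast hR')
  have hsup : ∀ᶠ n : ℕ in atTop, ∀ e, F n e * G n e ≠ 0 → e ∈ bx (R' * n) := by
    filter_upwards [hR] with n h1 e he
    obtain ⟨h2, h3⟩ := h1 e fun h => he (by rw [h, zero_mul])
    refine mem_bx' ⟨h2, h3⟩ ?_
    rw [Nat.cast_mul]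
    exact mul_le_mul_of_nonneg_right hR'' (Nat.cast_nonneg n)
  refine ⟨?_, hsup⟩
  have key : ∀ s : Bool, Tendsto (fun n : ℕ => ∑ P ∈ (Finset.Icc (-((R' * n : ℕ) : ℤ))
      ((R' * n : ℕ) : ℤ) ×ˢ Finset.Icc (-((R' * n : ℕ) : ℤ)) ((R' * n : ℕ) : ℤ)),
      F n (P, s) * G n (P, s)) atTop (𝓝 (∫ z, f s z * g s z)) := by
    intro s
    refine riemann (t := fun n : ℕ => (n : ℝ)) (M := M * N) (R := R')
      tendsto_natCast_atTop_atTop ?_ ?_ ?_ ?_
    · filter_upwards [hM, hN] with n h1 h2 P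
      have h3 := h1 (P, s)
      have h4 := h2 (P, s)
      rw [abs_mul]
      calc |F n (P, s)| * |G n (P, s)| ≤ (M / n) * (N / n) :=
            mul_le_mul h3 h4 (abs_nonneg _) ((abs_nonneg _).trans h3)
        _ = M * N / (n : ℝ) ^ 2 := by rw [div_mul_div_comm, sq]
    · filter_upwards [hsup] with n h1 P hP
      have := h1 (P, s) hP
      rw [bx, Finset.mem_product] at this
      exact this.1
    · filter_upwards [hR] with n h1 P hP
      obtain ⟨h2, h3⟩ := h1 (P, s) fun h => hP (by rw [h, zero_mul])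
      exact ⟨h2.trans (mul_le_mul_of_nonneg_right hR'' (Nat.cast_nonneg n)),
        h3.trans (mul_le_mul_of_nonneg_right hR'' (Nat.cast_nonneg n))⟩
    · filter_upwards [hF.lim s 0, hG.lim s 0] with z h1 h2
      refine (h1.mul h2).congr fun n => ?_
      simp only [add_zero]
      ring
  refine ((key false).add (key true)).congr fun n => ?_
  refine (Finset.sum_add_distrib).symm.trans ?_
  rw [bx]
  refine Eq.trans ?_ (Finset.sum_product _ _ _).symm
  refine Finset.sum_congr rfl fun P _ => ?_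
  rw [Fintype.sum_bool]
  ring

/-- **Sums of products converge to integrals.** -/
theorem BLim.sum_mul (hF : BLim F f) (hG : BLim G g) {S : ℕ → Finset Bnd}
    (hS : ∀ᶠ n : ℕ in atTop, ∀ e, F n e * G n e ≠ 0 → e ∈ S n) :
    Tendsto (fun n : ℕ => ∑ e ∈ S n, F n e * G n e) atTop
      (𝓝 ((∫ z, f false z * g false z) + ∫ z, f true z * g true z)) := by
  obtain ⟨R, hR⟩ := hF.sum_box hG
  obtain ⟨h1, h2⟩ := hR R le_rfl
  refine h1.congr' ?_
  filter_upwards [hS, h2] with n h3 h4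
  classical
  rw [← Finset.sum_filter_ne_zero (bx (R * n)), ← Finset.sum_filter_ne_zero (S n)]
  refine Finset.sum_congr ?_ fun _ _ => rfl
  ext e
  simp only [Finset.mem_filter]
  exact ⟨fun h => ⟨h3 e h.2, h.2⟩, fun h => ⟨h4 e h.2, h.2⟩⟩

/-- squares, every set of bonds, upper bound -/
theorem BLim.sum_sq_le (hF : BLim F f) {δ : ℝ} (hδ : 0 < δ) : ∀ᶠ n : ℕ in atTop,
    ∀ S : Finset Bnd, ∑ e ∈ S, F n e ^ 2 ≤
      (∫ z, f false z ^ 2) + (∫ z, f true z ^ 2) + δ := by
  obtain ⟨R, hR⟩ := hF.sum_box hF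
  obtain ⟨h1, h2⟩ := hR R le_rfl
  simp only [← sq] at h1 h2
  filter_upwards [h2, h1.eventually (gt_mem_nhds (lt_add_of_pos_right _ hδ))] with n h3 h4 S
  refine le_trans ?_ h4.le
  classical
  rw [← Finset.sum_filter_ne_zero S]
  refine Finset.sum_le_sum_of_subset_of_nonneg ?_ fun e _ _ => sq_nonneg _
  intro e he
  exact h3 e (Finset.mem_filter.1 he).2

/-- **Oscillations converge to `0`**, uniformly in the set of bonds. -/
theorem BLim.osc_le (hF : BLim F f) (l : ℕ) {δ : ℝ} (hδ : 0 < δ) : ∀ᶠ n : ℕ in atTop,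
    ∀ S : Finset Bnd, osc l S (F n) ≤ δ := by
  set I := Finset.Icc (-(l : ℤ), -(l : ℤ)) ((l : ℤ), (l : ℤ)) with hI
  have h1 : ∀ v : Z2, BLim (fun n e => F n (sh v e) - F n e) (fun _ _ => 0) := fun v =>
    ((hF.shift v).sub hF).congr (Eventually.of_forall fun _ _ => rfl)
      fun s => Eventually.of_forall fun z => by ring
  have hc : 0 < δ / (I.card + 1) := by positivity
  have h2 : ∀ᶠ n : ℕ in atTop, ∀ v ∈ I, ∀ S : Finset Bnd,
      ∑ e ∈ S, (F n (sh v e) - F n e) ^ 2 ≤ δ / (I.card + 1) := by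
    rw [Filter.eventually_all_finset]
    intro v _
    filter_upwards [(h1 v).sum_sq_le hc] with n hn S
    simpa using hn S
  filter_upwards [h2] with n hn S
  unfold osc
  rw [Finset.sum_comm]
  calc ∑ v ∈ I, ∑ e ∈ S, (F n (sh v e) - F n e) ^ 2
      ≤ ∑ _v ∈ I, δ / (I.card + 1) := Finset.sum_le_sum fun v hv => hn v hv S
    _ = I.card * (δ / (I.card + 1)) := by rw [Finset.sum_const, nsmul_eq_mul]
    _ ≤ δ := by
      rw [← mul_div_assoc, div_le_iff₀ (by positivity)]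
      nlinarith

/-- the supremum converges to `0` -/
theorem BLim.sup_le (hF : BLim F f) {η : ℝ} (hη : 0 < η) : ∀ᶠ n : ℕ in atTop,
    ∀ e, |F n e| ≤ η := by
  obtain ⟨M, hM⟩ := hF.bdd
  have h : Tendsto (fun n : ℕ => M / (n : ℝ)) atTop (𝓝 0) := tendsto_const_div_atTop_nhds_zero_nat M
  filter_upwards [hM, h.eventually (gt_mem_nhds hη)] with n h1 h2 e
  exact (h1 e).trans h2.le

end Vale.Agent.P159.T1.D.H459
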