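import Vale.Agent.P159.T1.D.H459.DenC
import Vale.Agent.P159.T1.H395.Bridge
import Vale.Agent.P159.T1.H995.Boxes
import Vale.Agent.P159.T1.H934.Hpos
import Vale.Agent.P159.T1.H777.Pieces

/-!
The row DEN of `StmtArm` from `StmtV` and `StmtUV`.
-/

namespace Vale.Agent.P159.T1.D.H459

open Vale.Agent.P159.H353 Vale.Agent.P159.T1.D Vale.Agent.P159.T1.H664

/-- **row DEN** -/
theorem stmtDen (hV : StmtV) (hUV : StmtUV) : StmtDen :=
  stmtDen_of (fun b hb => ⟨(H934.pos_of_ge b hb).1,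
      lt_of_lt_of_le (div_pos two_pos Real.pi_pos) (H934.pos_of_ge b hb).2⟩)
    (H934.gv' hV hUV stmtLat) hUV H395.stmtPull H711.stmtJ2 H777.stmtPieces H995.stmtBoxes

end Vale.Agent.P159.T1.D.H459
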