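import Vale.Agent.P159.T1.H664.NfBf
import Vale.Agent.P159.T1.H777.Lw
import Vale.Agent.P159.T1.H711.J2
import Vale.Agent.P159.T1.D.H226.Lat2

/-!
The denominator of `StmtArm`, continuum part: the three pieces of the test function, the energy
density of the difference of the tilt field and of the gradient of the test function, the energy
of the tilt field.
-/

open Filter Topology MeasureTheory Set

namespace Vale.Agent.P159.T1.D.H459

open Vale.Agent.P159.H353 Vale.Agent.P159.T1.D Vale.Agent.P159.T1.H664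

/-! ### scaling in `v` -/

lemma cW_scale (v d y : ℝ) : cW v d y = v * cW 1 d y := by
  unfold cW
  split_ifs <;> ring

lemma phx_scale (v d : ℝ) (w : ℝ × ℝ) : phx v d w = v * phx 1 d w := by
  unfold phx
  ring

lemma phy_scale (v d : ℝ) (w : ℝ × ℝ) : phy v d w = v * phy 1 d w := by
  unfold phy
  ring

lemma H2_scale (v d : ℝ) (w : ℝ × ℝ) : H2 v d w = v ^ 2 * H2 1 d w := by
  unfold H2
  rw [cW_scale, phx_scale, phy_scale]
  ring

/-! ### the pieces -/

lemma ph_sum (v d : ℝ) (z : ℝ × ℝ) : ph v d z = phR v d z + phL v d z + phM v d z := by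
  unfold ph phR phL phM
  by_cases h : z.2 < 0
  · rcases lt_trichotomy (lw z).1 0 with h1 | h1 | h1
    · rw [if_pos h, if_pos ⟨h, h1⟩, if_neg (fun h2 => absurd h2.2 (not_lt.2 h1.le)), if_pos h]
      ring
    · rw [if_pos h, if_neg (fun h2 => absurd h2.2 (by rw [h1]; exact lt_irrefl _)),
        if_neg (fun h2 => absurd h2.2 (by rw [h1]; exact lt_irrefl _)), if_pos h]
      have h3 := H777.lw_snd_pos z
      have h4 : H664.rw (lw z) = (lw z).2 := by
        unfold H664.rw
        rw [h1, zero_pow two_ne_zero, zero_add, Real.sqrt_sq h3.le]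
      have h5 : thM (lw z) = 1 := by
        unfold thM
        rw [h4, div_self h3.ne']
        exact Real.smoothTransition.one_of_one_le (by norm_num)
      rw [h5]
      ring
    · rw [if_pos h, if_neg (fun h2 => absurd h2.2 (not_lt.2 h1.le)), if_pos ⟨h, h1⟩, if_pos h]
      ring
  · rw [if_neg h, if_neg (fun h2 => h h2.1), if_neg (fun h2 => h h2.1), if_neg h]
    ring

/-! ### above the lip -/

lemma lw_snd_ge {z : ℝ × ℝ} (hz : 0 < z.2) : Real.pi ≤ (lw z).2 := by
  have h : 0 ≤ Complex.arg ⟨z.1, z.2⟩ := Complex.arg_nonneg_iff.2 hz.le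
  unfold lw
  simp only
  linarith

lemma half_lt_rw {z : ℝ × ℝ} (hz : 0 < z.2) : 1 / 2 < H664.rw (lw z) := by
  have h1 := lw_snd_ge hz
  have h2 := H711.abs_snd_le (lw z)
  have h3 := le_abs_self (lw z).2
  have h4 := Real.pi_gt_three
  linarith

lemma deriv_gp_eq_zero (d : ℝ) {x : ℝ} (hx : 1 / 2 < x) : deriv (gp d) x = 0 := by
  have h : gp d =ᶠ[𝓝 x] fun _ => (0 : ℝ) := by
    filter_upwards [Ioi_mem_nhds hx] with y hy
    exact H711.gp_eq_zero' (le_of_lt hy)
  rw [h.deriv_eq, deriv_const]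

lemma phx_above (v d : ℝ) {z : ℝ × ℝ} (hz : 0 < z.2) : phx v d (lw z) = 0 := by
  unfold phx
  rw [deriv_gp_eq_zero d (half_lt_rw hz)]
  ring

lemma phy_above (v d : ℝ) {z : ℝ × ℝ} (hz : 0 < z.2) : phy v d (lw z) = 0 := by
  unfold phy
  rw [deriv_gp_eq_zero d (half_lt_rw hz), H711.gp_eq_zero' (half_lt_rw hz).le]
  ring

/-- the derivative of the test function off the axis -/
lemma fderiv_ph {v d : ℝ} (hd : 0 < d) (hd1 : d < 1 / 100) {z : ℝ × ℝ}
    (hz : z.2 ≠ 0) (p : ℝ × ℝ) :
    fderiv ℝ (ph v d) z p =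
      (phx v d (lw z) * z.1 - phy v d (lw z) * z.2) / (z.1 ^ 2 + z.2 ^ 2) * p.1 +
        (phx v d (lw z) * z.2 + phy v d (lw z) * z.1) / (z.1 ^ 2 + z.2 ^ 2) * p.2 := by
  rcases lt_or_gt_of_ne hz with h | h
  · rw [(H777.stmtPhDeriv v d hd hd1 z h).hasFDerivAt.fderiv]
    simp
  · have h1 : ph v d =ᶠ[𝓝 z] fun _ => (0 : ℝ) := by
      have h2 : ∀ᶠ y : ℝ × ℝ in 𝓝 z, 0 < y.2 :=
        (continuous_snd.tendsto z).eventually_const_lt h
      filter_upwards [h2] with y hy
      unfold ph
      rw [if_neg (not_lt.2 hy.le)]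
    rw [h1.fderiv_eq, phx_above v d h, phy_above v d h]
    simp

/-- slope of the profile of the charges -/
noncomputable def gam (d t : ℝ) : ℝ := gp d (-t) + gp d t

/-- profile of the charges -/
noncomputable def Gam (d t : ℝ) : ℝ := GA d t + GB d t

/-- limit of the tilt field -/
noncomputable def FX (v d : ℝ) (s : Bool) (z : ℝ × ℝ) : ℝ :=
  cW v d (lw z).2 * (gam d (lw z).1 * ((if s then z.2 else z.1) / (z.1 ^ 2 + z.2 ^ 2)))

/-- limit of the gradient of the test function -/
noncomputable def FG (v d : ℝ) (s : Bool) (z : ℝ × ℝ) : ℝ :=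
  if s then -(fderiv ℝ (ph v d) z (1, 0)) else fderiv ℝ (ph v d) z (0, 1)

/-- **the energy density of the difference** -/
lemma dens_diff {v d : ℝ} (hd : 0 < d) (hd1 : d < 1 / 100) {z : ℝ × ℝ} (hz : z.2 ≠ 0) :
    (FX v d true z - FG v d true z) ^ 2 + (FX v d false z - FG v d false z) ^ 2 =
      H2 v d (lw z) / (z.1 ^ 2 + z.2 ^ 2) := by
  have hr : z.1 ^ 2 + z.2 ^ 2 ≠ 0 := by positivity
  unfold FX FG
  simp only [if_true, Bool.false_eq_true, if_false]
  rw [fderiv_ph hd hd1 hz, fderiv_ph hd hd1 hz]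
  unfold H2 gam
  field_simp
  ring

/-- the energy density of the tilt field -/
lemma dens_X (v d : ℝ) {z : ℝ × ℝ} (hz : z.2 ≠ 0) :
    FX v d true z ^ 2 + FX v d false z ^ 2 =
      (cW v d (lw z).2 * gam d (lw z).1) ^ 2 / (z.1 ^ 2 + z.2 ^ 2) := by
  have hr : z.1 ^ 2 + z.2 ^ 2 ≠ 0 := by positivity
  unfold FX
  simp only [if_true, Bool.false_eq_true, if_false]
  field_simp
  ring

lemma ae_snd : ∀ᵐ z : ℝ × ℝ, z.2 ≠ 0 := by
  have : (volume : Measure (ℝ × ℝ)) {z | z.2 = 0} = 0 := by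
    have e : {z : ℝ × ℝ | z.2 = 0} = Set.univ ×ˢ {(0 : ℝ)} := by ext z; simp
    rw [e, Measure.volume_eq_prod, Measure.prod_prod, Real.volume_singleton, mul_zero]
  exact ae_iff.2 (by simpa using this)

/-- **the energy of the difference** -/
lemma int_diff (hPull : StmtPull) {v d : ℝ} (hd : 0 < d) (hd1 : d < 1 / 100) :
    ∫ z, ((FX v d true z - FG v d true z) ^ 2 + (FX v d false z - FG v d false z) ^ 2) =
      v ^ 2 * ∫ w in strp, H2 1 d w := by
  have h1 : (fun z : ℝ × ℝ => (FX v d true z - FG v d true z) ^ 2 +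
      (FX v d false z - FG v d false z) ^ 2) =ᵐ[volume]
      fun z => H2 v d (lw z) / (z.1 ^ 2 + z.2 ^ 2) := by
    filter_upwards [ae_snd] with z hz
    exact dens_diff hd hd1 hz
  rw [integral_congr_ae h1, hPull (H2 v d), ← integral_const_mul]
  congr 1
  funext w
  exact H2_scale v d w

/-- the energy of the tilt field -/
lemma int_X (hPull : StmtPull) (v d : ℝ) :
    ∫ z, (FX v d true z ^ 2 + FX v d false z ^ 2) =
      ∫ w in strp, (cW v d w.2 * gam d w.1) ^ 2 := by
  have h1 : (fun z : ℝ × ℝ => FX v d true z ^ 2 + FX v d false z ^ 2) =ᵐ[volume]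
      fun z => (cW v d (lw z).2 * gam d (lw z).1) ^ 2 / (z.1 ^ 2 + z.2 ^ 2) := by
    filter_upwards [ae_snd] with z hz
    exact dens_X v d hz
  rw [integral_congr_ae h1, hPull fun w => (cW v d w.2 * gam d w.1) ^ 2]

lemma strp_eq : strp = (univ : Set ℝ) ×ˢ Ioo 0 (2 * Real.pi) := by
  ext w
  simp [strp]

/-- **lower bound for the energy of the tilt field** -/
lemma int_X_ge (v : ℝ) {d : ℝ} (hd : 0 < d) (hd1 : d < 1 / 100) :
    v ^ 2 / d * ∫ x : ℝ, gp d |x| ^ 2 ≤ ∫ w in strp, (cW v d w.2 * gam d w.1) ^ 2 := by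
  have h1 : ∫ w in strp, (cW v d w.2 * gam d w.1) ^ 2 =
      (∫ x : ℝ, gam d x ^ 2) * ∫ y in Ioo 0 (2 * Real.pi), cW v d y ^ 2 := by
    rw [strp_eq, Measure.volume_eq_prod, ← Measure.prod_restrict, Measure.restrict_univ,
      ← integral_prod_mul (fun x => gam d x ^ 2) fun y => cW v d y ^ 2]
    refine integral_congr_ae (Eventually.of_forall fun w => ?_)
    simp only
    ring
  have h2 : (∫ x : ℝ, gam d x ^ 2) = ∫ x : ℝ, gp d |x| ^ 2 := by
    congr 1
    funext x
    unfold gam
    rw [H711.gp_abs hd]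
  have h3 : v ^ 2 / d ≤ ∫ y in Ioo 0 (2 * Real.pi), cW v d y ^ 2 := by
    have hpi := Real.pi_gt_three
    have hm : Measurable (cW v d) := by
      unfold cW
      exact Measurable.ite (measurableSet_lt measurable_id measurable_const) measurable_const
        measurable_const
    have hint : IntegrableOn (fun y => cW v d y ^ 2) (Ioo 0 (2 * Real.pi)) := by
      refine Measure.integrableOn_of_bounded
        (M := (|v / d| + |v / (2 * Real.pi - d)|) ^ 2)
        (by rw [Real.volume_Ioo]; exact ENNReal.ofReal_ne_top)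
        (hm.pow_const 2).aestronglyMeasurable ?_
      refine Eventually.of_forall fun y => ?_
      rw [Real.norm_eq_abs, abs_pow]
      refine pow_le_pow_left₀ (abs_nonneg _) ?_ 2
      unfold cW
      split_ifs
      · exact le_add_of_nonneg_right (abs_nonneg _)
      · rw [abs_neg]
        exact le_add_of_nonneg_left (abs_nonneg _)
    have h4 : ∫ y in Ioo 0 d, cW v d y ^ 2 = v ^ 2 / d := by
      have h5 : ∫ y in Ioo 0 d, cW v d y ^ 2 = ∫ _y in Ioo 0 d, (v / d) ^ 2 := by
        refine setIntegral_congr_fun measurableSet_Ioo fun y hy => ?_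
        simp only [cW, if_pos hy.2]
      rw [h5, setIntegral_const, Measure.real, Real.volume_Ioo, sub_zero,
        ENNReal.toReal_ofReal hd.le, smul_eq_mul]
      field_simp
    rw [← h4]
    exact setIntegral_mono_set hint (Eventually.of_forall fun y => sq_nonneg _)
      (Eventually.of_forall (Ioo_subset_Ioo le_rfl (by linarith)))
  rw [h1, h2, mul_comm]
  refine mul_le_mul_of_nonneg_left h3 (integral_nonneg fun x => sq_nonneg _)

/-! ### the profiles -/

lemma gam_zero {d : ℝ} (hd : 0 < d) {t : ℝ} (ht : 1 / 2 ≤ |t|) : gam d t = 0 := by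
  unfold gam
  rw [H711.gp_abs hd]
  exact H711.gp_eq_zero' ht

lemma gam_le {d : ℝ} (hd : 0 < d) (t : ℝ) : |gam d t| ≤ 1 := by
  unfold gam
  rw [H711.gp_abs hd, abs_of_nonneg (H711.gp_nonneg d _)]
  exact H711.gp_le_one d _

lemma hasDerivAt_Gam (d t : ℝ) : HasDerivAt (Gam d) (gam d t) t := by
  have hc : Continuous (gp d) := (H777.contDiff_gp d (n := 0)).continuous
  have h1 : ∀ x, HasDerivAt (GB d) (gp d x) x := fun x =>
    (intervalIntegral.integral_hasStrictDerivAt_right (hc.intervalIntegrable _ _)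
      (hc.stronglyMeasurableAtFilter _ _) hc.continuousAt).hasDerivAt
  have h2 : HasDerivAt (GA d) (gp d (-t)) t := by
    have h3 := ((h1 (-t)).comp t (hasDerivAt_neg t)).neg
    have h4 : GA d = -(GB d ∘ fun x => -x) := by
      funext x
      rfl
    have h5 : gp d (-t) = -(gp d (-t) * -1) := by ring
    rw [h4, h5]
    exact h3
  exact h2.add (h1 t)

end Vale.Agent.P159.T1.D.H459
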