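import Vale.Agent.P159.T1.D.H459.DenA
import Vale.Agent.P159.T1.D.H469.Tri
import Vale.Agent.P159.T1.H934.CoverDefs

/-!
The denominator of `StmtArm`: the pieces of the test function in the form of `StmtGV`.
-/

open Filter Topology MeasureTheory Set

namespace Vale.Agent.P159.T1.D.H459

open Vale.Agent.P159.H353 Vale.Agent.P159.T1.D Vale.Agent.P159.T1.H664

/-- the maps to the corners -/
def cmap (s t α β : ℝ) (z : ℝ × ℝ) : ℝ × ℝ := (α + s * z.1, β + t * z.2)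

lemma cmap_cont (s t α β : ℝ) : Continuous (cmap s t α β) := by
  unfold cmap
  fun_prop

lemma cmap_contDiff (s t α β : ℝ) {n : WithTop ℕ∞} : ContDiff ℝ n (cmap s t α β) :=
  (contDiff_const.add (contDiff_const.mul contDiff_fst)).prodMk
    (contDiff_const.add (contDiff_const.mul contDiff_snd))

/-- the corner map as a homeomorphism -/
def cmapH (s t α β : ℝ) (hs : s * s = 1) (ht : t * t = 1) : (ℝ × ℝ) ≃ₜ (ℝ × ℝ) where
  toFun := cmap s t α β
  invFun := fun z => (s * (z.1 - α), t * (z.2 - β))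
  left_inv := fun z => by
    unfold cmap
    ext
    · simp only
      linear_combination z.1 * hs
    · simp only
      linear_combination z.2 * ht
  right_inv := fun z => by
    unfold cmap
    ext
    · simp only
      linear_combination (z.1 - α) * hs
    · simp only
      linear_combination (z.2 - β) * ht
  continuous_toFun := cmap_cont s t α β
  continuous_invFun := by fun_prop

/-- a piece seen from its corner -/
lemma piece {F ψ : ℝ × ℝ → ℝ} {s t α β : ℝ} (hs : s * s = 1) (ht : t * t = 1)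
    (hψ : ∀ z, ψ z = F (cmap s t α β z)) (h1 : ContDiff ℝ 2 F) (h2 : HasCompactSupport F) :
    ContDiff ℝ 2 ψ ∧ HasCompactSupport ψ ∧ ∀ p ∈ tsupport ψ, cmap s t α β p ∈ tsupport F := by
  have e : ψ = F ∘ cmap s t α β := funext hψ
  refine ⟨?_, ?_, ?_⟩
  · rw [e]
    exact h1.comp (cmap_contDiff s t α β)
  · rw [e]
    exact h2.comp_homeomorph (cmapH s t α β hs ht)
  · intro p hp
    rw [e] at hp
    exact tsupport_comp_subset_preimage F (cmap_cont s t α β) hp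

/-- the three pieces -/
noncomputable def psi (v d : ℝ) : Fin 3 → ℝ × ℝ → ℝ := ![phR v d, phL v d, phM v d]

/-- the corners -/
noncomputable def crn (q : ℕ) : Fin 3 → ℝ × ℝ :=
  ![(-1, 0), (-1 - 1 / (q : ℝ), 0), (-2, -(6 / (5 * (q : ℝ))))]

/-- the orientations -/
def orx : Fin 3 → Bool := ![true, false, true]

/-- the corners of the lattice boxes -/
def crnZ (q a : ℕ) : Fin 3 → Z2 :=
  ![(-(a : ℤ) + 1, -1), (-((a + a / q : ℕ) : ℤ) + 1, -1),
    (-(2 * a : ℤ), -((6 * a / (5 * q) + 1 : ℕ) : ℤ))]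

lemma psi_facts {v : ℝ} {q : ℕ} (hP : ∀ F : ℝ × ℝ → ℝ,
    (F = qR v (ang q) ∨ F = qL v (ang q) q ∨ F = qM v (ang q) q) →
    ContDiff ℝ 2 F ∧ HasCompactSupport F ∧ (∀ z ∈ tsupport F, 0 < z.1 ∧ 0 < z.2) ∧
      (∀ z ∈ tsupport F, z.1 ≤ 3 ∧ z.2 ≤ 3)) (i : Fin 3) :
    ContDiff ℝ 2 (psi v (ang q) i) ∧ HasCompactSupport (psi v (ang q) i) ∧
      ∀ p ∈ tsupport (psi v (ang q) i), ∃ g : ℝ × ℝ, 0 < g.1 ∧ g.1 ≤ (3 : ℕ) ∧ 0 < g.2 ∧
        g.2 ≤ (3 : ℕ) ∧ isoR (crn q i) (orx i) false false g = p := by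
  have e3 : ((3 : ℕ) : ℝ) = 3 := by norm_num
  rw [e3]
  match i with
  | 0 =>
    obtain ⟨h1, h2, h3, h4⟩ := hP (qR v (ang q)) (Or.inl rfl)
    obtain ⟨g1, g2, g3⟩ := piece (ψ := phR v (ang q)) (s := 1) (t := -1) (α := 1) (β := 0)
      (by norm_num) (by norm_num) (fun z => by
        unfold qR cmap
        congr 1
        ext <;> simp) h1 h2
    refine ⟨g1, g2, fun p hp => ⟨cmap 1 (-1) 1 0 p, (h3 _ (g3 p hp)).1, (h4 _ (g3 p hp)).1,
      (h3 _ (g3 p hp)).2, (h4 _ (g3 p hp)).2, ?_⟩⟩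
    simp only [isoR, crn, orx, cmap, Matrix.cons_val_zero, if_true, Bool.false_eq_true, if_false]
    ext <;> simp
  | 1 =>
    obtain ⟨h1, h2, h3, h4⟩ := hP (qL v (ang q) q) (Or.inr (Or.inl rfl))
    obtain ⟨g1, g2, g3⟩ := piece (ψ := phL v (ang q)) (s := -1) (t := -1)
      (α := -1 - 1 / (q : ℝ)) (β := 0)
      (by norm_num) (by norm_num) (fun z => by
        unfold qL cmap
        congr 1
        ext <;> simp) h1 h2
    refine ⟨g1, g2, fun p hp => ⟨cmap (-1) (-1) (-1 - 1 / (q : ℝ)) 0 p, (h3 _ (g3 p hp)).1,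
      (h4 _ (g3 p hp)).1, (h3 _ (g3 p hp)).2, (h4 _ (g3 p hp)).2, ?_⟩⟩
    simp only [isoR, crn, orx, cmap, Matrix.cons_val_one, Matrix.cons_val_zero,
      Bool.false_eq_true, if_false]
    ext
    · simp
      ring
    · simp
  | 2 =>
    obtain ⟨h1, h2, h3, h4⟩ := hP (qM v (ang q) q) (Or.inr (Or.inr rfl))
    obtain ⟨g1, g2, g3⟩ := piece (ψ := phM v (ang q)) (s := 1) (t := -1)
      (α := 2) (β := -(6 / (5 * (q : ℝ))))
      (by norm_num) (by norm_num) (fun z => by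
        unfold qM cmap
        congr 1
        ext <;> simp) h1 h2
    refine ⟨g1, g2, fun p hp => ⟨cmap 1 (-1) 2 (-(6 / (5 * (q : ℝ)))) p, (h3 _ (g3 p hp)).1,
      (h4 _ (g3 p hp)).1, (h3 _ (g3 p hp)).2, (h4 _ (g3 p hp)).2, ?_⟩⟩
    simp only [isoR, crn, orx, cmap, Matrix.cons_val, if_true, Bool.false_eq_true, if_false]
    ext <;> simp

lemma psi_sum (v d : ℝ) (z : ℝ × ℝ) : ∑ i, psi v d i z = ph v d z := by
  rw [Fin.sum_univ_three, ph_sum]
  rfl

lemma crn_near {q : ℕ} (hq : 1 ≤ q) (a : ℕ) (i : Fin 3) :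
    |((crnZ q a i).1 : ℝ) - a * (crn q i).1| ≤ 2 ∧
      |((crnZ q a i).2 : ℝ) - a * (crn q i).2| ≤ 2 := by
  have hq0 : (0 : ℝ) < q := by exact_mod_cast hq
  match i with
  | 0 =>
    simp only [crnZ, crn, Matrix.cons_val_zero, Int.cast_add, Int.cast_neg, Int.cast_natCast,
      Int.cast_one]
    constructor
    · rw [show -(a : ℝ) + 1 - a * -1 = 1 by ring]
      norm_num
    · norm_num
  | 1 =>
    simp only [crnZ, crn, Matrix.cons_val_one, Matrix.cons_val_zero, Int.cast_add, Int.cast_neg,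
      Int.cast_natCast, Int.cast_one]
    have h1 : ((a / q : ℕ) : ℝ) ≤ (a : ℝ) / q := Nat.cast_div_le
    have h2 : (a : ℝ) / q < ((a / q : ℕ) : ℝ) + 1 := by
      rw [div_lt_iff₀ hq0]
      have := Nat.lt_div_mul_add (a := a) (b := q) (by omega)
      have h3 : a < (a / q + 1) * q := by
        calc a < a / q * q + q := this
          _ = (a / q + 1) * q := by ring
      exact_mod_cast h3
    constructor
    · push_cast
      rw [abs_le]
      have h4 : (a : ℝ) * (-1 - 1 / (q : ℝ)) = -a - a / q := by ring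
      rw [h4]
      constructor <;> linarith
    · norm_num
  | 2 =>
    simp only [crnZ, crn, Matrix.cons_val, Int.cast_neg, Int.cast_natCast, Int.cast_mul,
      Int.cast_ofNat]
    have h5 : (0 : ℝ) < ((5 * q : ℕ) : ℝ) := by
      push_cast
      linarith
    have h1 : ((6 * a / (5 * q) : ℕ) : ℝ) ≤ ((6 * a : ℕ) : ℝ) / ((5 * q : ℕ) : ℝ) :=
      Nat.cast_div_le
    have h2 : ((6 * a : ℕ) : ℝ) / ((5 * q : ℕ) : ℝ) < ((6 * a / (5 * q) : ℕ) : ℝ) + 1 := by
      rw [div_lt_iff₀ h5]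
      have := Nat.lt_div_mul_add (a := 6 * a) (b := 5 * q) (by omega)
      have h3 : 6 * a < (6 * a / (5 * q) + 1) * (5 * q) := by
        calc 6 * a < 6 * a / (5 * q) * (5 * q) + 5 * q := this
          _ = (6 * a / (5 * q) + 1) * (5 * q) := by ring
      exact_mod_cast h3
    constructor
    · rw [show -(2 * (a : ℝ)) - a * -2 = 0 by ring]
      norm_num
    · rw [abs_le]
      have h4 : (a : ℝ) * -(6 / (5 * (q : ℝ))) =
          -(((6 * a : ℕ) : ℝ) / ((5 * q : ℕ) : ℝ)) := by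
        push_cast
        ring
      rw [h4]
      push_cast at h1 h2 ⊢
      constructor <;> linarith

/-- the boxes -/
lemma boxes (hBx : StmtBoxes) {q : ℕ} (hq : 6 ≤ q) (R : ℕ) : ∃ A0 a0 : ℕ, ∀ (A r a : ℕ),
    A0 ≤ A → a0 ≤ a → (a : ℝ) ≤ 1 / 12 * r →
    ∀ Q : Finset Z2, (∀ f, f ∈ Q ↔ f ∈ strip q a (a + a / q)) → ∀ (i : Fin 3) (f : Z2),
      0 ≤ f.1 → f.1 < a * R → 0 ≤ f.2 → f.2 < a * R →
      iso (crnZ q a i) (orx i) false false f ∈ SB (A * r) r \ Q := by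
  obtain ⟨A0, a0, h⟩ := hBx q hq R
  refine ⟨A0, a0, fun A r a h1 h2 h3 Q hQ i f h4 h5 h6 h7 => ?_⟩
  obtain ⟨g1, g2, g3⟩ := h A r a h1 h2 h3 Q hQ f h4 h5 h6 h7
  match i with
  | 0 => exact g1
  | 1 => exact g2
  | 2 => exact g3

end Vale.Agent.P159.T1.D.H459
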