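import Vale.Agent.P159.T1.D.H459.DenB
import Vale.Agent.P159.T1.H910.DKit

/-!
The denominator of `StmtArm`: assembly.
-/

open Filter Topology MeasureTheory Set

namespace Vale.Agent.P159.T1.D.H459

open Vale.Agent.P159.H353 Vale.Agent.P159.T1.D Vale.Agent.P159.T1.H664
open Vale.Agent.P159.T1.D.H469 (Df Nf Df_eq Nf_nonneg Vr_ge_tri osc_nonneg)

/-- the field of the charges of the cell `a` -/
noncomputable def XX (Y V : ℝ) (q a : ℕ) : Bnd → ℝ :=
  Bf Y V q fun t => Gam (ang q) (t - Real.log a)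

/-- the gradient of the test function -/
noncomputable def GG (v : ℝ) (q a : ℕ) : Bnd → ℝ :=
  dr fun f => ∑ i, smp (psi v (ang q) i) a 0 f

lemma GG_eq (v : ℝ) (q a : ℕ) : GG v q a =
    dr fun f => ph v (ang q) (((f.1 : ℝ) + (0 : ℝ × ℝ).1) / a, ((f.2 : ℝ) + (0 : ℝ × ℝ).2) / a) := by
  unfold GG smp
  congr 1
  funext f
  rw [psi_sum]

/-- large `q` gives small angles -/
lemma ang_small {δ : ℝ} (hδ : 0 < δ) : ∃ q0 : ℕ, 6 ≤ q0 ∧ ∀ q ≥ q0, 0 < ang q ∧ ang q < δ := by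
  have h : Tendsto (fun q : ℕ => ang q) atTop (𝓝 0) := by
    have h1 := (Real.continuous_arctan.tendsto 0).comp
      (tendsto_one_div_atTop_nhds_zero_nat (𝕜 := ℝ))
    rwa [Real.arctan_zero] at h1
  obtain ⟨m, hm⟩ := eventually_atTop.1 (h.eventually_lt_const hδ)
  refine ⟨max 6 m, le_max_left _ _, fun q hq => ⟨ang_pos ?_, hm q ((le_max_right _ _).trans hq)⟩⟩
  have := (le_max_left 6 m).trans hq
  omega

/-- the limits on the lattice, for one `q` -/
lemma lattice (hPull : StmtPull) {Y V v : ℝ} {q : ℕ} (hq : 1 ≤ q) (hv : V / Y = v)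
    (hd : 0 < ang q) (hd1 : ang q < 1 / 100) (hc : ContDiff ℝ 2 (ph v (ang q)))
    (hs : HasCompactSupport (ph v (ang q))) (l : ℕ) {ε : ℝ} (hε : 0 < ε) :
    ∃ L : ℕ, ∀ᶠ a : ℕ in atTop,
      (∀ e, e ∉ Sb L a → XX Y V q a e = 0) ∧ (∀ e, e ∉ Sb L a → GG v q a e = 0) ∧
      v ^ 2 / ang q * (∫ x : ℝ, gp (ang q) |x| ^ 2) - ε ≤ ∑ e ∈ Sb L a, XX Y V q a e ^ 2 ∧
      ∑ e ∈ Sb L a, (XX Y V q a e - GG v q a e) ^ 2 ≤
        v ^ 2 * (∫ w in strp, H2 1 (ang q) w) + ε ∧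
      osc l (Sb L a) (fun e => XX Y V q a e - GG v q a e) ≤ ε ∧
      ∑ e ∈ Sb L a, GG v q a e ^ 2 ≤ Dir (ph v (ang q)) + ε ∧
      osc l (Sb L a) (GG v q a) ≤ ε := by
  set d := ang q with hd'
  have ht : Tendsto (fun a : ℕ => (a : ℝ)) atTop atTop := tendsto_natCast_atTop_atTop
  have hX : NF atTop (fun a : ℕ => (a : ℝ)) (fun a => XX Y V q a) (FX v d) := by
    have h1 := nf_Bf Y V hq (Γ := Gam d) (γ := gam d) (A := 1) (hasDerivAt_Gam d)
      (gam_le hd) fun t ht => gam_zero hd ht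
    rw [hv] at h1
    exact h1
  have hG : NF atTop (fun a : ℕ => (a : ℝ)) (fun a => GG v q a) (FG v d) := by
    have h1 := nf_dr ht (hc.of_le (by norm_num)) hs (w := fun _ => (0 : ℝ × ℝ)) (T := 0)
      (Eventually.of_forall fun a => by simp)
    have e : (fun a : ℕ => GG v q a) = fun a : ℕ => dr fun f =>
        ph v d (((f.1 : ℝ) + (0 : ℝ × ℝ).1) / a, ((f.2 : ℝ) + (0 : ℝ × ℝ).2) / a) :=
      funext fun a => GG_eq v q a
    rw [e]
    exact h1
  have hXG := hX.sub ht hG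
  obtain ⟨R1, hR1⟩ := hX.supp
  obtain ⟨R2, hR2⟩ := hG.supp
  obtain ⟨L, hL⟩ := exists_nat_ge (max R1 R2)
  refine ⟨L, ?_⟩
  have s1 : ∀ᶠ a : ℕ in atTop, ∀ e, XX Y V q a e ≠ 0 → e ∈ Sb L a := by
    filter_upwards [hR1] with a ha e he
    exact mem_Sb ((le_max_left _ _).trans hL) (ha e he)
  have s2 : ∀ᶠ a : ℕ in atTop, ∀ e, GG v q a e ≠ 0 → e ∈ Sb L a := by
    filter_upwards [hR2] with a ha e he
    exact mem_Sb ((le_max_right _ _).trans hL) (ha e he)
  have s3 : ∀ᶠ a : ℕ in atTop, ∀ e, XX Y V q a e - GG v q a e ≠ 0 → e ∈ Sb L a := by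
    filter_upwards [s1, s2] with a h1 h2 e he
    by_cases h3 : XX Y V q a e = 0
    · exact h2 e fun h4 => he (by rw [h3, h4, sub_zero])
    · exact h1 e h3
  have t1 := hX.energy ht s1
  have t2 := hXG.energy ht s3
  have t3 := hG.energy ht s2
  have t4 := hXG.osc_tendsto ht l (fun a => Sb L a)
  have t5 := hG.osc_tendsto ht l (fun a => Sb L a)
  rw [int_X hPull v d] at t1
  rw [int_diff hPull hd hd1] at t2
  have hDir : (∫ z, (FG v d true z ^ 2 + FG v d false z ^ 2)) = Dir (ph v d) := by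
    unfold Dir FG
    congr 1
    funext z
    simp
  rw [hDir] at t3
  filter_upwards [s1, s2, t1.eventually_const_lt (show (∫ w in strp,
      (cW v d w.2 * gam d w.1) ^ 2) - ε < _ by linarith),
    t2.eventually_lt_const (show _ < v ^ 2 * (∫ w in strp, H2 1 d w) + ε by linarith),
    t3.eventually_lt_const (show _ < Dir (ph v d) + ε by linarith),
    t4.eventually_lt_const hε, t5.eventually_lt_const hε] with a h1 h2 h3 h4 h5 h6 h7
  refine ⟨fun e he => ?_, fun e he => ?_, ?_, h4.le, h6.le, h5.le, h7.le⟩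
  · by_contra h0
    exact he (h1 e h0)
  · by_contra h0
    exact he (h2 e h0)
  · have := int_X_ge v hd hd1
    linarith

/-- **DEN.** The denominator of `StmtArm`. -/
theorem stmtDen_of (hpos : ∀ b, bCrit ≤ b → 0 < b ∧ 0 < helicity b) (hGV : StmtGV)
    (hUV : StmtUV) (hPull : StmtPull) (hJ : StmtJ2) (hP : StmtPieces) (hBx : StmtBoxes) :
    StmtDen := by
  intro b V hb hV
  obtain ⟨hb0, hY⟩ := hpos b hb
  set Y := helicity b with hYdef
  set v := V / Y with hv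
  have hv0 : 0 < v := div_pos hV hY
  obtain ⟨CJ, d0, hd0, hJ⟩ := hJ
  obtain ⟨qP, hqP, hP⟩ := hP
  obtain ⟨C', c', hC', hc', hGV⟩ := hGV b hb
  set M0 : ℝ := (Y + 1) * (v ^ 2 * |CJ| + 1) + 1 with hM0
  have hM0' : 0 ≤ M0 := by positivity
  obtain ⟨qA, hqA, hang⟩ := ang_small (δ := min d0 (1 / 100)) (lt_min hd0 (by norm_num))
  refine ⟨1 + (Real.sqrt M0 + 1) ^ 2 / 2, max qP qA, fun q hq => ?_⟩
  have hq1 : qP ≤ q := (le_max_left _ _).trans hq
  have hq2 : qA ≤ q := (le_max_right _ _).trans hq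
  have hq6 : 6 ≤ q := hqA.trans hq2
  obtain ⟨hd, hdlt⟩ := hang q hq2
  have hdd0 : ang q < d0 := hdlt.trans_le (min_le_left _ _)
  have hd1 : ang q < 1 / 100 := hdlt.trans_le (min_le_right _ _)
  have hfacts := psi_facts (v := v) (q := q) fun F hF => hP q hq1 v F hF
  have hph : ph v (ang q) = fun p => ∑ i, psi v (ang q) i p := by
    funext p
    exact (psi_sum v (ang q) p).symm
  have hc : ContDiff ℝ 2 (ph v (ang q)) := by
    rw [hph]
    exact ContDiff.sum fun i _ => (hfacts i).1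
  have hs : HasCompactSupport (ph v (ang q)) := by
    have e : ph v (ang q) = psi v (ang q) 0 + psi v (ang q) 1 + psi v (ang q) 2 := by
      funext p
      rw [hph]
      simp only [Fin.sum_univ_three, Pi.add_apply]
    rw [e]
    exact ((hfacts 0).2.1.add (hfacts 1).2.1).add (hfacts 2).2.1
  set D := Dir (ph v (ang q)) with hD
  have hD0 : 0 ≤ D := by
    rw [hD]
    unfold Dir
    exact integral_nonneg fun z => by positivity
  set Ds := ∑ i, Dir (psi v (ang q) i) with hDs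
  -- the parameters
  set ε : ℝ := 1 / (8 * (D + 1)) with hε
  have hε0 : 0 < ε := by positivity
  have hεD : ε * D ≤ 1 / 8 := by
    rw [hε, div_mul_eq_mul_div, one_mul, div_le_div_iff₀ (by positivity) (by norm_num)]
    linarith
  have hε1 : ε ≤ 1 := by
    rw [hε, div_le_one (by positivity)]
    linarith
  obtain ⟨l, CU, hCU, UV⟩ := hUV b ε hb0 hε0
  obtain ⟨R, hR3, hR⟩ : ∃ R : ℕ, 3 ≤ R ∧
      (3 : ℕ) * (Y * C' * (((3 : ℕ) : ℝ) / R) ^ c' * Ds) ≤ 1 / 8 := by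
    have h1 : Tendsto (fun R : ℕ => (((3 : ℕ) : ℝ) / R) ^ c') atTop (𝓝 0) := by
      have h2 : Tendsto (fun R : ℕ => ((3 : ℕ) : ℝ) / R) atTop (𝓝 0) :=
        tendsto_const_div_atTop_nhds_zero_nat _
      have h3 := h2.rpow_const (p := c') (Or.inr hc'.le)
      rwa [Real.zero_rpow hc'.ne'] at h3
    have h4 : Tendsto (fun R : ℕ => (3 : ℕ) * (Y * C' * (((3 : ℕ) : ℝ) / R) ^ c' * Ds)) atTop
        (𝓝 ((3 : ℕ) * (Y * C' * 0 * Ds))) := ((h1.const_mul _).mul_const _).const_mul _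
    rw [mul_zero, zero_mul, mul_zero] at h4
    obtain ⟨R, h5, h6⟩ := ((eventually_ge_atTop 3).and
      (h4.eventually_lt_const (show (0 : ℝ) < 1 / 8 by norm_num))).exists
    exact ⟨R, h5, h6.le⟩
  obtain ⟨n0, hgv⟩ := hGV 3 (psi v (ang q)) (crn q) orx (fun _ => false) (fun _ => false) 3 R
    (by norm_num) hR3 (fun i => (hfacts i).1) (fun i => (hfacts i).2.1)
    (fun i => (hfacts i).2.2) 2 (1 / 8) (by norm_num)
  obtain ⟨A0, a0, hbox⟩ := boxes hBx hq6 R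
  set δ : ℝ := min (1 / (Y + 1)) (1 / CU) / 8 with hδ
  have hδ0 : 0 < δ := by positivity
  have hδ1 : (Y + 1) * δ ≤ 1 / 8 := by
    have h1 : δ ≤ 1 / (Y + 1) / 8 := by
      rw [hδ]
      exact div_le_div_of_nonneg_right (min_le_left _ _) (by norm_num)
    calc (Y + 1) * δ ≤ (Y + 1) * (1 / (Y + 1) / 8) :=
          mul_le_mul_of_nonneg_left h1 (by positivity)
      _ = 1 / 8 := by field_simp
  have hδ2 : CU * δ ≤ 1 / 8 := by
    have h1 : δ ≤ 1 / CU / 8 := by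
      rw [hδ]
      exact div_le_div_of_nonneg_right (min_le_right _ _) (by norm_num)
    calc CU * δ ≤ CU * (1 / CU / 8) := mul_le_mul_of_nonneg_left h1 hCU.le
      _ = 1 / 8 := by field_simp
  obtain ⟨L, hlat⟩ := lattice hPull (Y := Y) (V := V) (v := v) (by omega : 1 ≤ q) rfl hd hd1 hc hs
    l hδ0
  obtain ⟨a1, hlat⟩ := eventually_atTop.1 hlat
  refine ⟨max (max n0 a0) (max a1 1), A0, fun a ha A hA r har Q hQ => ?_⟩
  have ha1 : n0 ≤ a := ((le_max_left _ _).trans (le_max_left _ _)).trans ha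
  have ha2 : a0 ≤ a := ((le_max_right _ _).trans (le_max_left _ _)).trans ha
  have ha3 : a1 ≤ a := ((le_max_left _ _).trans (le_max_right _ _)).trans ha
  obtain ⟨g1, g2, g3, g4, g5, g6, g7⟩ := hlat a ha3
  set U := SB (A * r) r \ Q with hU
  -- the variance of the test function
  have hv1 := hgv a ha1 (crnZ q a) (fun i => crn_near (by omega : 1 ≤ q) a i) U
    (fun i f h1 h2 h3 h4 => hbox A r a hA ha2 har Q hQ i f h1 h2 h3 h4) 0
    (by norm_num) (by norm_num)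
  have hv2 : Y * D - 1 / 4 ≤ Vr b U (GG v q a) := by
    have e : Dir (fun p => ∑ i, psi v (ang q) i p) = D := by rw [hD, hph]
    rw [e] at hv1
    have hv3 : Vr b U (dr fun f => ∑ i, smp (psi v (ang q) i) a 0 f) = Vr b U (GG v q a) := rfl
    rw [hv3] at hv1
    linarith
  -- the upper bound
  have H : ∀ B : Bnd → ℝ, (∀ e, e ∉ Sb L a → B e = 0) →
      Vr b U B ≤ (Y + ε) * ∑ e ∈ Sb L a, B e ^ 2 + CU * osc l (Sb L a) B :=
    fun B hB => UV U (Sb L a) B hB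
  have hdf : Df b (Y + ε) CU l U (Sb L a) (GG v q a) ≤ 1 := by
    rw [Df_eq]
    unfold Nf
    have h1 : (Y + ε) * ∑ e ∈ Sb L a, GG v q a e ^ 2 ≤ (Y + ε) * (D + δ) :=
      mul_le_mul_of_nonneg_left g6 (by positivity)
    have h2 : CU * osc l (Sb L a) (GG v q a) ≤ CU * δ := mul_le_mul_of_nonneg_left g7 hCU.le
    have h3 : (Y + ε) * δ ≤ (Y + 1) * δ := mul_le_mul_of_nonneg_right (by linarith) hδ0.le
    have h4 : (Y + ε) * (D + δ) = Y * D + ε * D + (Y + ε) * δ := by ring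
    linarith
  have hmain := Vr_ge_tri H hb0.le g1 g2 hdf
  rw [Real.sqrt_one] at hmain
  have hN : Nf (Y + ε) CU l (Sb L a) (fun e => XX Y V q a e - GG v q a e) ≤ M0 := by
    unfold Nf
    have hJ' := hJ (ang q) hd hdd0
    have h0 : v ^ 2 * (∫ w in strp, H2 1 (ang q) w) ≤ v ^ 2 * |CJ| :=
      mul_le_mul_of_nonneg_left (hJ'.trans (le_abs_self _)) (by positivity)
    have h1 : (Y + ε) * ∑ e ∈ Sb L a, (XX Y V q a e - GG v q a e) ^ 2 ≤
        (Y + ε) * (v ^ 2 * |CJ| + δ) :=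
      mul_le_mul_of_nonneg_left (g4.trans (by linarith)) (by positivity)
    have h2 : CU * osc l (Sb L a) (fun e => XX Y V q a e - GG v q a e) ≤ CU * δ :=
      mul_le_mul_of_nonneg_left g5 hCU.le
    have h3 : (Y + ε) * (v ^ 2 * |CJ| + δ) ≤ (Y + 1) * (v ^ 2 * |CJ| + δ) :=
      mul_le_mul_of_nonneg_right (by linarith) (by positivity)
    have h4 : (Y + 1) * (v ^ 2 * |CJ| + δ) = (Y + 1) * (v ^ 2 * |CJ|) + (Y + 1) * δ := by ring
    have h5 : M0 = (Y + 1) * (v ^ 2 * |CJ|) + (Y + 1) + 1 := by rw [hM0]; ring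
    linarith
  have hsq : (Real.sqrt (Nf (Y + ε) CU l (Sb L a) fun e => XX Y V q a e - GG v q a e) + 1) ^ 2 ≤
      (Real.sqrt M0 + 1) ^ 2 := by
    have h1 := Real.sqrt_le_sqrt hN
    have h2 := Real.sqrt_nonneg (Nf (Y + ε) CU l (Sb L a) fun e => XX Y V q a e - GG v q a e)
    exact pow_le_pow_left₀ (by linarith) (by linarith) 2
  -- the energy of the field
  have hI0 : 0 ≤ ∫ x : ℝ, gp (ang q) |x| ^ 2 := integral_nonneg fun x => sq_nonneg _
  have hNX : Y * (v ^ 2 / ang q * (∫ x : ℝ, gp (ang q) |x| ^ 2)) - 1 ≤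
      Nf (Y + ε) CU l (Sb L a) (XX Y V q a) := by
    unfold Nf
    have h1 : 0 ≤ CU * osc l (Sb L a) (XX Y V q a) := mul_nonneg hCU.le (osc_nonneg _ _ _)
    have h2 : 0 ≤ ∑ e ∈ Sb L a, XX Y V q a e ^ 2 := Finset.sum_nonneg fun _ _ => sq_nonneg _
    have h3 : 0 ≤ ε * ∑ e ∈ Sb L a, XX Y V q a e ^ 2 := mul_nonneg hε0.le h2
    have h4 := mul_le_mul_of_nonneg_left g3 hY.le
    have h5 : Y * δ ≤ (Y + 1) * δ := mul_le_mul_of_nonneg_right (by linarith) hδ0.le
    have h6 : Y * (v ^ 2 / ang q * (∫ x : ℝ, gp (ang q) |x| ^ 2) - δ) =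
      Y * (v ^ 2 / ang q * (∫ x : ℝ, gp (ang q) |x| ^ 2)) - Y * δ := by ring
    rw [add_mul]
    linarith
  have hSq : Sq Y V q = Y * (v ^ 2 / ang q * (∫ x : ℝ, gp (ang q) |x| ^ 2)) / 2 := by
    unfold Sq
    rw [hv]
    field_simp
  have hfin : Sq Y V q - (1 + (Real.sqrt M0 + 1) ^ 2 / 2) ≤ Vr b U (XX Y V q a) / 2 := by
    rw [hSq]
    linarith
  -- the charges
  have hdiv : IsDiv U (XX Y V q a) fun f => rA Y V q a f + rB Y V q a f := by
    have h1 : IsDiv U (XX Y V q a) (ro Y V q fun t => Gam (ang q) (t - Real.log a)) := by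
      refine isDiv_Bf' (fun f hf => ?_) (by omega)
      rw [hU, Finset.mem_sdiff] at hf
      exact off_slit hf.1
    refine h1.congr fun f _ => ?_
    unfold rA rB
    rw [← ro_add]
    rfl
  have hexp := H910.exp_Vr_le hb0.le U (XX Y V q a)
  rw [H910.ZB_eq_Zρ hdiv] at hexp
  refine le_trans (mul_le_mul_of_nonneg_right (Real.exp_le_exp.2 hfin) ?_) hexp
  exact (H910.Z_pos hb0.le U).le

end Vale.Agent.P159.T1.D.H459
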