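import Vale.Agent.P159.T1.D.H459.BLim
import Vale.Agent.P159.T1.D.H407.Tilt
import Mathlib.Analysis.Calculus.Rademacher

/-!
Instances of `BLim`: gradients of sampled Lipschitz functions (on faces and on sites) and the
coefficient of the tilt field.
-/

open MeasureTheory Filter Topology Set

namespace Vale.Agent.P159.T1.D.H459

open Vale.Agent.P159.T1.D Vale.Agent.P159.T1.H407

/-- difference quotients along two sequences -/
lemma quot {φ : ℝ × ℝ → ℝ} {φ' : ℝ × ℝ →L[ℝ] ℝ} {z : ℝ × ℝ} (hφ : HasFDerivAt φ φ' z)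
    {p p' : ℕ → ℝ × ℝ} {K : ℝ} (hp : ∀ᶠ n : ℕ in atTop, ‖p n - z‖ ≤ K * (n : ℝ)⁻¹)
    (hp' : ∀ᶠ n : ℕ in atTop, ‖p' n - z‖ ≤ K * (n : ℝ)⁻¹) {w : ℝ × ℝ}
    (hw : ∀ᶠ n : ℕ in atTop, (n : ℝ) • (p n - p' n) = w) :
    Tendsto (fun n : ℕ => (n : ℝ) * (φ (p n) - φ (p' n))) atTop (𝓝 (φ' w)) := by
  have hinv : Tendsto (fun n : ℕ => K * (n : ℝ)⁻¹) atTop (𝓝 0) := by
    simpa using (tendsto_inv_atTop_nhds_zero_nat (𝕜 := ℝ)).const_mul K
  have hrem : ∀ p : ℕ → ℝ × ℝ, (∀ᶠ n : ℕ in atTop, ‖p n - z‖ ≤ K * (n : ℝ)⁻¹) →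
      Tendsto (fun n : ℕ => (n : ℝ) * (φ (p n) - φ z - φ' (p n - z))) atTop (𝓝 0) := by
    intro p hp
    have h0 : Tendsto p atTop (𝓝 z) := by
      rw [tendsto_iff_norm_sub_tendsto_zero]
      exact squeeze_zero' (Eventually.of_forall fun n => norm_nonneg _) hp hinv
    have h1 := (hasFDerivAt_iff_isLittleO.1 hφ).comp_tendsto h0
    have h2 : (fun n => p n - z) =O[atTop] fun n : ℕ => ((n : ℝ))⁻¹ := by
      refine Asymptotics.IsBigO.of_bound K ?_
      filter_upwards [hp] with n hn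
      rw [norm_inv, RCLike.norm_natCast]
      exact hn
    have h3 := h1.trans_isBigO h2
    have h4 := h3.tendsto_inv_smul_nhds_zero
    refine h4.congr fun n => ?_
    simp only [Function.comp, inv_inv, smul_eq_mul]
  have h := ((hrem p hp).sub (hrem p' hp')).add (tendsto_const_nhds (x := φ' w))
  rw [sub_zero, zero_add] at h
  refine h.congr' ?_
  filter_upwards [hw] with n hn
  have e1 : φ' w = (n : ℝ) * (φ' (p n - z) - φ' (p' n - z)) := by
    rw [← hn, map_smul, smul_eq_mul, ← map_sub]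
    congr 2
    abel
  rw [e1]
  ring

/-- a lattice function: `φ` sampled with an offset -/
noncomputable def smp (φ : ℝ × ℝ → ℝ) (o : ℕ → ℝ × ℝ) (n : ℕ) (f : Z2) : ℝ :=
  φ (((f.1 : ℝ) + (o n).1) / n, ((f.2 : ℝ) + (o n).2) / n)

/-- limit of the gradient of a function on the faces -/
noncomputable def rot (φ : ℝ × ℝ → ℝ) (s : Bool) (z : ℝ × ℝ) : ℝ :=
  if s then -fderiv ℝ φ z (1, 0) else fderiv ℝ φ z (0, 1)

/-- limit of the gradient of a function on the sites -/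
noncomputable def grd (φ : ℝ × ℝ → ℝ) (s : Bool) (z : ℝ × ℝ) : ℝ :=
  if s then fderiv ℝ φ z (0, 1) else fderiv ℝ φ z (1, 0)

section core

variable {φ : ℝ × ℝ → ℝ} {o : ℕ → ℝ × ℝ} {K : NNReal} {M : ℝ}

lemma smp_sub_le (hφ : LipschitzWith K φ) (n : ℕ) (f f' : Z2)
    (h1 : |(f.1 : ℝ) - f'.1| ≤ 1) (h2 : |(f.2 : ℝ) - f'.2| ≤ 1) :
    |smp φ o n f - smp φ o n f'| ≤ K / n := by
  unfold smp
  have h := hφ.dist_le_mul (((f.1 : ℝ) + (o n).1) / n, ((f.2 : ℝ) + (o n).2) / n)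
    (((f'.1 : ℝ) + (o n).1) / n, ((f'.2 : ℝ) + (o n).2) / n)
  rw [Real.dist_eq] at h
  refine h.trans ?_
  rw [div_eq_mul_inv (K : ℝ)]
  refine mul_le_mul_of_nonneg_left ?_ K.coe_nonneg
  rw [Prod.dist_eq]
  refine max_le ?_ ?_
  · rw [Real.dist_eq, ← sub_div, abs_div, Nat.abs_cast, ← one_div, add_sub_add_right_eq_sub]
    exact div_le_div_of_nonneg_right h1 (Nat.cast_nonneg n)
  · rw [Real.dist_eq, ← sub_div, abs_div, Nat.abs_cast, ← one_div, add_sub_add_right_eq_sub]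
    exact div_le_div_of_nonneg_right h2 (Nat.cast_nonneg n)

/-- the support of a sampled function -/
lemma smp_supp (hc : HasCompactSupport φ) (ho : ∀ n, ‖o n‖ ≤ M) : ∃ R : ℝ, 0 ≤ R ∧
    ∀ᶠ n : ℕ in atTop, ∀ f, smp φ o n f ≠ 0 → |(f.1 : ℝ)| ≤ R * n ∧ |(f.2 : ℝ)| ≤ R * n := by
  obtain ⟨ρ, hρ⟩ := hc.isCompact.isBounded.exists_norm_le
  refine ⟨|ρ| + |M|, by positivity, ?_⟩
  filter_upwards [eventually_ge_atTop 1] with n hn f hf
  have hn1 : (1 : ℝ) ≤ n := by exact_mod_cast hn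
  have hn0 : (0 : ℝ) < n := by linarith
  have h1 := hρ _ (subset_tsupport _ hf)
  rw [Prod.norm_def] at h1
  have h2 := (le_max_left _ _).trans (h1.trans (le_abs_self ρ))
  have h3 := (le_max_right _ _).trans (h1.trans (le_abs_self ρ))
  simp only [Real.norm_eq_abs, abs_div, Nat.abs_cast] at h2 h3
  rw [div_le_iff₀ hn0] at h2 h3
  have ho1 : |(o n).1| ≤ |M| := (norm_fst_le (o n)).trans ((ho n).trans (le_abs_self M))
  have ho2 : |(o n).2| ≤ |M| := (norm_snd_le (o n)).trans ((ho n).trans (le_abs_self M))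
  have h4 : |M| ≤ |M| * n := le_mul_of_one_le_right (abs_nonneg M) hn1
  rw [add_mul]
  constructor
  · have h5 := abs_add_le ((f.1 : ℝ) + (o n).1) (-(o n).1)
    rw [abs_neg, add_neg_cancel_right] at h5
    linarith
  · have h5 := abs_add_le ((f.2 : ℝ) + (o n).2) (-(o n).2)
    rw [abs_neg, add_neg_cancel_right] at h5
    linarith

/-- convergence of the difference quotients of a sampled function -/
lemma smp_quot {φ' : ℝ × ℝ →L[ℝ] ℝ} {z : ℝ × ℝ} (hφ : HasFDerivAt φ φ' z)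
    (ho : ∀ n, ‖o n‖ ≤ M) (u v : Z2) :
    Tendsto (fun n : ℕ => (n : ℝ) * (smp φ o n (fl n z + u) - smp φ o n (fl n z + v))) atTop
      (𝓝 (φ' (((u.1 : ℝ) - v.1), ((u.2 : ℝ) - v.2)))) := by
  have hb : ∀ u : Z2, ∀ n : ℕ, 1 ≤ n →
      ‖((((fl n z + u).1 : ℝ) + (o n).1) / n, (((fl n z + u).2 : ℝ) + (o n).2) / n) - z‖ ≤
        (|(u.1 : ℝ)| + |(u.2 : ℝ)| + |M| + 1) * (n : ℝ)⁻¹ := by
    intro u n hn
    have hn0 : (0 : ℝ) < n := by exact_mod_cast hn
    have h5 : ∀ (x b c : ℝ), |(((⌊(n : ℝ) * x⌋ : ℤ) : ℝ) + b + c) / n - x| ≤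
        (|b| + |c| + 1) * (n : ℝ)⁻¹ := by
      intro x b c
      have h4 : ((⌊(n : ℝ) * x⌋ : ℤ) : ℝ) = (n : ℝ) * x - Int.fract ((n : ℝ) * x) := by
        rw [← Int.self_sub_fract]
      have h6 : (((⌊(n : ℝ) * x⌋ : ℤ) : ℝ) + b + c) / n - x =
          (b + c - Int.fract ((n : ℝ) * x)) * (n : ℝ)⁻¹ := by
        rw [h4]
        field_simp
        ring
      rw [h6, abs_mul, abs_of_pos (inv_pos.2 hn0)]
      refine mul_le_mul_of_nonneg_right ?_ (inv_pos.2 hn0).le
      have h2 := Int.fract_nonneg ((n : ℝ) * x)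
      have h3 := Int.fract_lt_one ((n : ℝ) * x)
      calc |b + c - Int.fract ((n : ℝ) * x)| ≤ |b + c| + |Int.fract ((n : ℝ) * x)| := abs_sub _ _
        _ ≤ |b| + |c| + 1 := by
            rw [abs_of_nonneg h2]
            have := abs_add_le b c
            linarith
    have ho1 : |(o n).1| ≤ |M| := (norm_fst_le (o n)).trans ((ho n).trans (le_abs_self M))
    have ho2 : |(o n).2| ≤ |M| := (norm_snd_le (o n)).trans ((ho n).trans (le_abs_self M))
    rw [Prod.norm_def]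
    refine max_le ?_ ?_
    · simp only [Prod.fst_sub, Prod.fst_add, Int.cast_add, Real.norm_eq_abs]
      refine (h5 z.1 u.1 (o n).1).trans (mul_le_mul_of_nonneg_right ?_ (inv_pos.2 hn0).le)
      have := abs_nonneg (u.2 : ℝ)
      linarith
    · simp only [Prod.snd_sub, Prod.snd_add, Int.cast_add, Real.norm_eq_abs]
      refine (h5 z.2 u.2 (o n).2).trans (mul_le_mul_of_nonneg_right ?_ (inv_pos.2 hn0).le)
      have := abs_nonneg (u.1 : ℝ)
      linarith
  refine quot hφ (K := (|(u.1 : ℝ)| + |(u.2 : ℝ)| + |M| + 1) +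
    (|(v.1 : ℝ)| + |(v.2 : ℝ)| + |M| + 1)) ?_ ?_ ?_
  · filter_upwards [eventually_ge_atTop 1] with n hn
    refine (hb u n hn).trans (mul_le_mul_of_nonneg_right ?_ (by positivity))
    exact le_add_of_nonneg_right (by positivity)
  · filter_upwards [eventually_ge_atTop 1] with n hn
    refine (hb v n hn).trans (mul_le_mul_of_nonneg_right ?_ (by positivity))
    exact le_add_of_nonneg_left (by positivity)
  · filter_upwards [eventually_ge_atTop 1] with n hn
    have hn0 : (n : ℝ) ≠ 0 := by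
      have : (0 : ℝ) < n := by exact_mod_cast hn
      exact this.ne'
    ext
    · simp only [Prod.smul_fst, Prod.fst_sub, Prod.fst_add, Int.cast_add, smul_eq_mul]
      field_simp
      ring
    · simp only [Prod.smul_snd, Prod.snd_sub, Prod.snd_add, Int.cast_add, smul_eq_mul]
      field_simp
      ring

end core

variable {φ : ℝ × ℝ → ℝ} {o : ℕ → ℝ × ℝ} {K : NNReal} {M : ℝ}

/-- **The gradient of a sampled Lipschitz function on the faces.** -/
theorem BLim_dr (hφ : LipschitzWith K φ) (hc : HasCompactSupport φ) (ho : ∀ n, ‖o n‖ ≤ M) :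
    BLim (fun n => dr (smp φ o n)) (rot φ) where
  bdd := ⟨K, Eventually.of_forall fun n e => by
    obtain ⟨⟨x, y⟩, b⟩ := e
    cases b
    · exact smp_sub_le hφ n _ _ (by simp [lf, rt]) (by simp [lf, rt])
    · exact smp_sub_le hφ n _ _ (by simp [lf, rt]) (by simp [lf, rt])⟩
  supp := by
    obtain ⟨R, hR, h⟩ := smp_supp hc ho
    refine ⟨R + 1, ?_⟩
    filter_upwards [h, eventually_ge_atTop 1] with n hn hn1 e he
    have hn1' : (1 : ℝ) ≤ n := by exact_mod_cast hn1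
    have h1 : smp φ o n (lf e) ≠ 0 ∨ smp φ o n (rt e) ≠ 0 := by
      by_contra hcon
      push Not at hcon
      exact he (by simp [dr, hcon.1, hcon.2])
    have h2 : ∀ f : Z2, |(e.1.1 : ℝ) - f.1| ≤ 1 → |(e.1.2 : ℝ) - f.2| ≤ 1 →
        |(f.1 : ℝ)| ≤ R * n ∧ |(f.2 : ℝ)| ≤ R * n →
        |(e.1.1 : ℝ)| ≤ (R + 1) * n ∧ |(e.1.2 : ℝ)| ≤ (R + 1) * n := by
      intro f h3 h4 h5
      rw [add_mul, one_mul]
      constructor
      · have := abs_add_le ((e.1.1 : ℝ) - f.1) (f.1 : ℝ)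
        rw [sub_add_cancel] at this
        linarith [h5.1]
      · have := abs_add_le ((e.1.2 : ℝ) - f.2) (f.2 : ℝ)
        rw [sub_add_cancel] at this
        linarith [h5.2]
    obtain ⟨⟨x, y⟩, b⟩ := e
    rcases h1 with h1 | h1
    · refine h2 _ ?_ ?_ (hn _ h1) <;> cases b <;> simp [lf]
    · refine h2 _ ?_ ?_ (hn _ h1) <;> cases b <;> simp [rt]
  lim := by
    intro s u
    filter_upwards [hφ.ae_differentiableAt (μ := volume)] with z hz
    cases s
    · have h := smp_quot (o := o) hz.hasFDerivAt ho u (u + (0, -1))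
      have e1 : rot φ false z = fderiv ℝ φ z (((u.1 : ℝ) - (u + (0, -1)).1),
          ((u.2 : ℝ) - (u + (0, -1)).2)) := by
        simp [rot]
      rw [e1]
      refine h.congr fun n => ?_
      simp only [dr, lf, rt, Bool.false_eq_true, if_false]
      congr 3
      ext
      · simp
      · simp only [Prod.snd_add]
        ring
    · have h := smp_quot (o := o) hz.hasFDerivAt ho (u + (-1, 0)) u
      have e1 : rot φ true z = fderiv ℝ φ z (((((u + (-1, 0)).1 : ℤ) : ℝ) - u.1),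
          (((u + (-1, 0)).2 : ℤ) : ℝ) - u.2) := by
        simp only [rot, if_true]
        rw [← map_neg]
        congr 1
        ext <;> simp
      rw [e1]
      refine h.congr fun n => ?_
      simp only [dr, lf, rt, if_true]
      congr 3
      ext
      · simp only [Prod.fst_add]
        ring
      · simp

/-- **The gradient of a sampled Lipschitz function on the sites.** -/
theorem BLim_gs (hφ : LipschitzWith K φ) (hc : HasCompactSupport φ) (ho : ∀ n, ‖o n‖ ≤ M) :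
    BLim (fun n => gs (smp φ o n)) (grd φ) where
  bdd := ⟨K, Eventually.of_forall fun n e => by
    obtain ⟨⟨x, y⟩, b⟩ := e
    cases b
    · exact smp_sub_le hφ n _ _ (by simp [bt, bs]) (by simp [bt, bs])
    · exact smp_sub_le hφ n _ _ (by simp [bt, bs]) (by simp [bt, bs])⟩
  supp := by
    obtain ⟨R, hR, h⟩ := smp_supp hc ho
    refine ⟨R + 1, ?_⟩
    filter_upwards [h, eventually_ge_atTop 1] with n hn hn1 e he
    have hn1' : (1 : ℝ) ≤ n := by exact_mod_cast hn1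
    have h1 : smp φ o n (bt e) ≠ 0 ∨ smp φ o n (bs e) ≠ 0 := by
      by_contra hcon
      push Not at hcon
      exact he (by simp [gs, hcon.1, hcon.2])
    have h2 : ∀ f : Z2, |(e.1.1 : ℝ) - f.1| ≤ 1 → |(e.1.2 : ℝ) - f.2| ≤ 1 →
        |(f.1 : ℝ)| ≤ R * n ∧ |(f.2 : ℝ)| ≤ R * n →
        |(e.1.1 : ℝ)| ≤ (R + 1) * n ∧ |(e.1.2 : ℝ)| ≤ (R + 1) * n := by
      intro f h3 h4 h5
      rw [add_mul, one_mul]
      constructor
      · have := abs_add_le ((e.1.1 : ℝ) - f.1) (f.1 : ℝ)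
        rw [sub_add_cancel] at this
        linarith [h5.1]
      · have := abs_add_le ((e.1.2 : ℝ) - f.2) (f.2 : ℝ)
        rw [sub_add_cancel] at this
        linarith [h5.2]
    obtain ⟨⟨x, y⟩, b⟩ := e
    rcases h1 with h1 | h1
    · refine h2 _ ?_ ?_ (hn _ h1) <;> cases b <;> simp [bt]
    · refine h2 _ ?_ ?_ (hn _ h1) <;> cases b <;> simp [bs]
  lim := by
    intro s u
    filter_upwards [hφ.ae_differentiableAt (μ := volume)] with z hz
    cases s
    · have h := smp_quot (o := o) hz.hasFDerivAt ho (u + (1, 0)) u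
      have e1 : grd φ false z = fderiv ℝ φ z (((((u + (1, 0)).1 : ℤ) : ℝ) - u.1),
          (((u + (1, 0)).2 : ℤ) : ℝ) - u.2) := by
        simp only [grd, Bool.false_eq_true, if_false]
        congr 1
        ext <;> simp
      rw [e1]
      refine h.congr fun n => ?_
      simp only [gs, bt, bs, Bool.false_eq_true, if_false]
      congr 3
      ext
      · simp only [Prod.fst_add]
        ring
      · simp
    · have h := smp_quot (o := o) hz.hasFDerivAt ho (u + (0, 1)) u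
      have e1 : grd φ true z = fderiv ℝ φ z (((((u + (0, 1)).1 : ℤ) : ℝ) - u.1),
          (((u + (0, 1)).2 : ℤ) : ℝ) - u.2) := by
        simp only [grd, if_true]
        congr 1
        ext <;> simp
      rw [e1]
      refine h.congr fun n => ?_
      simp only [gs, bt, bs, if_true]
      congr 3
      ext
      · simp
      · simp only [Prod.snd_add]
        ring

/-- functions which are constant near infinity -/
theorem BLim_gs' {c : ℝ} (hφ : LipschitzWith K φ) (hc : HasCompactSupport fun z => φ z - c)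
    (ho : ∀ n, ‖o n‖ ≤ M) : BLim (fun n => gs (smp φ o n)) (grd φ) := by
  have h1 : LipschitzWith K fun z => φ z - c := by
    refine LipschitzWith.of_dist_le_mul fun x y => ?_
    rw [dist_sub_right]
    exact hφ.dist_le_mul x y
  refine (BLim_gs h1 hc ho).congr (Eventually.of_forall fun n e => ?_)
    fun s => Eventually.of_forall fun z => ?_
  · simp only [gs, smp]
    ring
  · simp only [grd, fderiv_sub_const]

/-! ### the coefficient of the tilt field -/

/-- the open cone -/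
def Cone (q : ℕ) : Set (ℝ × ℝ) := {z | z.2 < 0 ∧ z.1 < q * z.2}

open Classical in
/-- the limit of the coefficient -/
noncomputable def cc (Y V : ℝ) (q : ℕ) (z : ℝ × ℝ) : ℝ := if z ∈ Cone q then k2 Y V q else k1 Y V q

lemma fl_fst_le (n : ℕ) (z : ℝ × ℝ) : ((fl n z).1 : ℝ) ≤ n * z.1 := Int.floor_le _

lemma fl_fst_gt (n : ℕ) (z : ℝ × ℝ) : (n : ℝ) * z.1 - 1 < (fl n z).1 := Int.sub_one_lt_floor _

lemma fl_snd_le (n : ℕ) (z : ℝ × ℝ) : ((fl n z).2 : ℝ) ≤ n * z.2 := Int.floor_le _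

lemma fl_snd_gt (n : ℕ) (z : ℝ × ℝ) : (n : ℝ) * z.2 - 1 < (fl n z).2 := Int.sub_one_lt_floor _

lemma ev_mul {x : ℝ} (hx : 0 < x) (y : ℝ) : ∀ᶠ n : ℕ in atTop, y ≤ n * x :=
  (tendsto_natCast_atTop_atTop.atTop_mul_const hx).eventually_ge_atTop y

lemma mem_cone_ev {q : ℕ} {z : ℝ × ℝ} (hz : z ∈ Cone q) (u : Z2) :
    ∀ᶠ n : ℕ in atTop, fl n z + u ∈ cone q := by
  obtain ⟨h1, h2⟩ := hz
  filter_upwards [ev_mul (neg_pos.2 h1) (u.2 + 2), ev_mul (sub_pos.2 h2) (u.1 - q * u.2)] with n h3 h4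
  have h5 := fl_fst_le n z
  have h6 := fl_snd_le n z
  have h7 := fl_snd_gt n z
  constructor
  · have : (((fl n z + u).2 : ℤ) : ℝ) ≤ -2 := by
      simp only [Prod.snd_add, Int.cast_add]
      linarith
    exact_mod_cast this
  · have hq : (0 : ℝ) ≤ q := Nat.cast_nonneg q
    have : (q : ℝ) * (-1 - ((fl n z + u).2 : ℤ)) ≤ -((fl n z + u).1 : ℤ) := by
      simp only [Prod.snd_add, Prod.fst_add, Int.cast_add]
      have h8 : (q : ℝ) * (-1 - ((fl n z).2 + u.2)) ≤ q * (-(n * z.2) - u.2) :=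
        mul_le_mul_of_nonneg_left (by linarith) hq
      linarith
    exact_mod_cast this

lemma notMem_cone_ev {q : ℕ} {z : ℝ × ℝ} (_h1 : z.2 < 0) (h2 : (q : ℝ) * z.2 < z.1) (u : Z2) :
    ∀ᶠ n : ℕ in atTop, fl n z + u ∉ cone q := by
  filter_upwards [ev_mul (sub_pos.2 h2) (q * (u.2 + 1) - u.1 + 2)] with n h4 hmem
  have h5 := fl_fst_gt n z
  have h6 := fl_snd_le n z
  have hq : (0 : ℝ) ≤ q := Nat.cast_nonneg q
  have h7 : (q : ℝ) * (-1 - ((fl n z + u).2 : ℤ)) ≤ -((fl n z + u).1 : ℤ) := by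
    exact_mod_cast hmem.2
  simp only [Prod.snd_add, Prod.fst_add, Int.cast_add] at h7
  have h8 : (q : ℝ) * (-1 - (n * z.2 + u.2)) ≤ q * (-1 - ((fl n z).2 + u.2)) :=
    mul_le_mul_of_nonneg_left (by linarith) hq
  nlinarith

lemma notMem_cone_ev' {q : ℕ} {z : ℝ × ℝ} (h1 : 0 < z.2) (u : Z2) :
    ∀ᶠ n : ℕ in atTop, fl n z + u ∉ cone q := by
  filter_upwards [ev_mul h1 (-u.2)] with n h4 hmem
  have h6 := fl_snd_gt n z
  have h7 : (((fl n z + u).2 : ℤ) : ℝ) ≤ -2 := by exact_mod_cast hmem.1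
  simp only [Prod.snd_add, Int.cast_add] at h7
  linarith

lemma ae_lines (q : ℕ) : ∀ᵐ z : ℝ × ℝ, z.2 ≠ 0 ∧ z.1 ≠ q * z.2 := by
  have h1 : ∀ L : ℝ × ℝ →ₗ[ℝ] ℝ, L ≠ 0 → ∀ᵐ z : ℝ × ℝ, L z ≠ 0 := by
    intro L hL
    have h2 : volume (LinearMap.ker L : Set (ℝ × ℝ)) = 0 := by
      refine Measure.addHaar_submodule volume _ ?_
      intro h
      exact hL (LinearMap.ker_eq_top.1 h)
    rw [ae_iff]
    convert h2 using 2
    ext z
    simp
  have h2 := h1 (LinearMap.snd ℝ ℝ ℝ) (by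
    intro h
    have := congrArg (fun L => L (0, 1)) h
    simp at this)
  have h3 := h1 (LinearMap.fst ℝ ℝ ℝ - (q : ℝ) • LinearMap.snd ℝ ℝ ℝ) (by
    intro h
    have := congrArg (fun L => L (1, 0)) h
    simp at this)
  filter_upwards [h2, h3] with z h4 h5
  refine ⟨h4, fun h => h5 ?_⟩
  simp [h]

/-- the coefficient converges almost everywhere -/
lemma cf_ev (Y V : ℝ) (q : ℕ) (s : Bool) (u : Z2) : ∀ᵐ z : ℝ × ℝ, ∀ᶠ n : ℕ in atTop,
    cf Y V q (fl n z + u, s) = cc Y V q z := by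
  filter_upwards [ae_lines q] with z hz
  obtain ⟨h1, h2⟩ := hz
  have hrt : ∃ v : Z2, ∀ P : Z2, rt (P, s) = P + v := by
    cases s
    · exact ⟨(0, -1), fun P => by ext <;> simp [rt, sub_eq_add_neg]⟩
    · exact ⟨0, fun P => by simp [rt]⟩
  have hlf : ∃ v : Z2, ∀ P : Z2, lf (P, s) = P + v := by
    cases s
    · exact ⟨0, fun P => by simp [lf]⟩
    · exact ⟨(-1, 0), fun P => by ext <;> simp [lf, sub_eq_add_neg]⟩
  obtain ⟨v, hv⟩ := hrt
  obtain ⟨w, hw⟩ := hlf
  by_cases hz : z ∈ Cone q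
  · filter_upwards [mem_cone_ev hz (u + v), mem_cone_ev hz (u + w)] with n h3 h4
    rw [cc, if_pos hz, cf_eq, if_pos]
    left
    rw [hv, hw, add_assoc, add_assoc]
    exact ⟨h3, h4⟩
  · have h5 : ∀ᶠ n : ℕ in atTop, fl n z + (u + v) ∉ cone q := by
      rcases lt_or_gt_of_ne h1 with h6 | h6
      · refine notMem_cone_ev h6 ?_ _
        rcases lt_or_gt_of_ne h2 with h7 | h7
        · exact absurd ⟨h6, h7⟩ hz
        · exact h7
      · exact notMem_cone_ev' h6 _
    filter_upwards [h5] with n h6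
    rw [cc, if_neg hz, cf_eq, if_neg]
    rw [hv, add_assoc]
    rintro (⟨h7, -⟩ | ⟨h7, -⟩) <;> exact h6 h7

/-- **Multiplication by the coefficient.** -/
theorem BLim.cf {F : ℕ → Bnd → ℝ} {f : Bool → ℝ × ℝ → ℝ} (hF : BLim F f) (Y V : ℝ) (q : ℕ) :
    BLim (fun n e => D.cf Y V q e * F n e) (fun s z => cc Y V q z * f s z) where
  bdd := by
    obtain ⟨M, hM⟩ := hF.bdd
    refine ⟨(|k2 Y V q| + |k1 Y V q|) * M, ?_⟩
    filter_upwards [hM] with n h1 e
    rw [abs_mul, mul_div_assoc]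
    refine mul_le_mul ?_ (h1 e) (abs_nonneg _) (by positivity)
    rcases cf_cases (Y := Y) (V := V) (q := q) e with h | h
    · rw [h]
      exact le_add_of_nonneg_right (abs_nonneg _)
    · rw [h]
      exact le_add_of_nonneg_left (abs_nonneg _)
  supp := by
    obtain ⟨M, hM⟩ := hF.supp
    refine ⟨M, ?_⟩
    filter_upwards [hM] with n h1 e he
    exact h1 e fun h => he (by rw [h, mul_zero])
  lim := fun s u => by
    filter_upwards [hF.lim s u, cf_ev Y V q s u] with z h1 h2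
    refine (h1.const_mul (cc Y V q z)).congr' ?_
    filter_upwards [h2] with n h3
    rw [h3]
    ring

end Vale.Agent.P159.T1.D.H459
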